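import Vale.Agent.P162.H816.DimLe
import Vale.Agent.P162.S2.Iface

/-!
# The level inequality

A symmetric operator that commutes with the representation and is bounded by a convex combination of
matching projections is at most `2^(-k/100)` on the vectors orthogonal to all the `S_B`-invariant
vectors with `|B| > N - k`.
-/

open Equiv Finset
open scoped InnerProductSpace

namespace Vale.Agent.P162.H816

variable {V : Type*} [NormedAddCommGroup V] [InnerProductSpace ℝ V]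
variable {α : Type*} [DecidableEq α]

/-- the product of the projections `(1 + ρ (a b))/2` over the pairs of a list. -/
noncomputable def PMr (ρ : Perm α →* (V →ₗ[ℝ] V)) (M : List (α × α)) : V →ₗ[ℝ] V :=
  (M.map fun e => (1 / 2 : ℝ) • (1 + ρ (swap e.1 e.2))).prod

theorem PMr_nil (ρ : Perm α →* (V →ₗ[ℝ] V)) (v : V) : PMr ρ [] v = v := rfl

theorem PMr_cons (ρ : Perm α →* (V →ₗ[ℝ] V)) (e : α × α) (M : List (α × α)) (v : V) :
    PMr ρ (e :: M) v = (1 / 2 : ℝ) • (PMr ρ M v + ρ (swap e.1 e.2) (PMr ρ M v)) := by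
  simp [PMr, Module.End.mul_apply]

/-- pairwise disjoint pairs of distinct points -/
def IsMat (M : List (α × α)) : Prop := (M.flatMap fun e => [e.1, e.2]).Nodup

omit [DecidableEq α] in
theorem IsMat.cons {e : α × α} {M : List (α × α)} (h : IsMat (e :: M)) :
    IsMat M ∧ e.1 ≠ e.2 ∧ ∀ e' ∈ M, e'.1 ≠ e.1 ∧ e'.1 ≠ e.2 ∧ e'.2 ≠ e.1 ∧ e'.2 ≠ e.2 := by
  unfold IsMat at h ⊢
  rw [List.nodup_flatMap] at h ⊢
  obtain ⟨h1, h2⟩ := h
  rw [List.pairwise_cons] at h2
  refine ⟨⟨fun x hx => h1 x (List.mem_cons_of_mem _ hx), h2.2⟩, ?_, ?_⟩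
  · have := h1 e List.mem_cons_self
    simpa using this
  · intro e' he'
    have h3 := h2.1 e' he'
    simp only [Function.onFun, List.disjoint_cons_left, List.mem_cons, List.not_mem_nil,
      or_false, not_or] at h3
    obtain ⟨⟨a1, a2⟩, ⟨a3, a4⟩, -⟩ := h3
    exact ⟨Ne.symm a1, Ne.symm a3, Ne.symm a2, Ne.symm a4⟩

theorem PMr_fixed (ρ : Perm α →* (V →ₗ[ℝ] V)) (M : List (α × α)) (hM : IsMat M) (v : V) :
    ∀ e ∈ M, ρ (swap e.1 e.2) (PMr ρ M v) = PMr ρ M v := by
  induction M with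
  | nil => intro e he; simp at he
  | cons a M ih =>
    obtain ⟨hM', ha, hd⟩ := hM.cons
    intro e he
    rw [PMr_cons, map_smul, map_add, ← rho_mul]
    rcases List.mem_cons.mp he with rfl | he'
    · rw [swap_mul_self, map_one, add_comm]
      rfl
    · obtain ⟨h1, h2, h3, h4⟩ := hd e he'
      have hc : swap e.1 e.2 * swap a.1 a.2 = swap a.1 a.2 * swap e.1 e.2 := by
        have := Equiv.mul_swap_eq_swap_mul (swap e.1 e.2) a.1 a.2
        rw [swap_apply_of_ne_of_ne (Ne.symm h1) (Ne.symm h3),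
          swap_apply_of_ne_of_ne (Ne.symm h2) (Ne.symm h4)] at this
        exact this
      rw [hc, rho_mul, ih hM' e he']

theorem PMr_of_fixed (ρ : Perm α →* (V →ₗ[ℝ] V)) (M : List (α × α)) {v : V}
    (hv : ∀ e ∈ M, ρ (swap e.1 e.2) v = v) : PMr ρ M v = v := by
  induction M with
  | nil => rfl
  | cons a M ih =>
    rw [PMr_cons, ih (fun e he => hv e (List.mem_cons_of_mem _ he)), hv a List.mem_cons_self]
    module

/-- the two end points of the pairs of a list -/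
def mtL (M : List (α × α)) (x : Bool × Fin M.length) : α :=
  if x.1 then (M.get x.2).2 else (M.get x.2).1

omit [DecidableEq α] in
theorem mtL_injective {M : List (α × α)} (hM : IsMat M) : Function.Injective (mtL M) := by
  unfold IsMat at hM
  rw [List.nodup_flatMap] at hM
  obtain ⟨h1, h2⟩ := hM
  rw [List.pairwise_iff_getElem] at h2
  have hne : ∀ i : Fin M.length, (M.get i).1 ≠ (M.get i).2 := by
    intro i
    have := h1 _ (List.get_mem M i)
    simpa using this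
  have hd : ∀ i j : Fin M.length, i < j → ∀ b b' : Bool, mtL M (b, i) ≠ mtL M (b', j) := by
    intro i j hij b b'
    have h3 := h2 i j i.2 j.2 hij
    simp only [Function.onFun, List.disjoint_cons_left, List.mem_cons, List.not_mem_nil,
      or_false, not_or] at h3
    obtain ⟨⟨a1, a2⟩, ⟨a3, a4⟩, -⟩ := h3
    cases b <;> cases b' <;> simp only [mtL, if_true, List.get_eq_getElem] <;>
      first | exact a1 | exact a2 | exact a3 | exact a4
  rintro ⟨b, i⟩ ⟨b', j⟩ h
  rcases lt_trichotomy i j with hij | hij | hij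
  · exact absurd h (hd i j hij b b')
  · subst hij
    cases b <;> cases b'
    · rfl
    · exact absurd h (hne i)
    · exact absurd h.symm (hne i)
    · rfl
  · exact absurd h.symm (hd j i hij b' b)

theorem isProj_PMr (ρ : Perm α →* (V →ₗ[ℝ] V)) (M : List (α × α)) (hM : IsMat M) :
    LinearMap.IsProj (InvM ρ (mtL M)) (PMr ρ M) where
  map_mem := by
    intro v i
    exact PMr_fixed ρ M hM v (M.get i) (List.get_mem M i)
  map_id := by
    intro v hv
    apply PMr_of_fixed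
    intro e he
    obtain ⟨i, rfl⟩ := List.get_of_mem he
    exact hv i

/-- restriction of a representation -/
def restr (ρ : Perm α →* (V →ₗ[ℝ] V)) (W : Submodule ℝ V) (hW : ∀ g, ∀ v ∈ W, ρ g v ∈ W) :
    Perm α →* (W →ₗ[ℝ] W) where
  toFun g := (ρ g).restrict (hW g)
  map_one' := by
    ext v
    simp
  map_mul' g g' := by
    ext v
    simp

omit [DecidableEq α] in
theorem restr_apply (ρ : Perm α →* (V →ₗ[ℝ] V)) (W : Submodule ℝ V)
    (hW : ∀ g, ∀ v ∈ W, ρ g v ∈ W) (g : Perm α) (v : W) : (restr ρ W hW g v : V) = ρ g v := rfl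

theorem PMr_restr (ρ : Perm α →* (V →ₗ[ℝ] V)) (W : Submodule ℝ V)
    (hW : ∀ g, ∀ v ∈ W, ρ g v ∈ W) (M : List (α × α)) (v : W) :
    (PMr (restr ρ W hW) M v : V) = PMr ρ M v := by
  induction M with
  | nil => rfl
  | cons a M ih =>
    rw [PMr_cons, PMr_cons, Submodule.coe_smul, Submodule.coe_add, restr_apply, ih]

variable [Fintype α]

/-- the trace bound for a matching projection -/
theorem trace_PMr_le [FiniteDimensional ℝ V] {ρ : Perm α →* (V →ₗ[ℝ] V)}
    (hρ : ∀ g v, ‖ρ g v‖ = ‖v‖) (heven : Even (Fintype.card α)) {k : ℕ} (hk : 400 ≤ k)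
    (hi : ∀ B : Finset α, Fintype.card α < B.card + k → ∀ v : V,
      (∀ x ∈ B, ∀ y ∈ B, ρ (swap x y) v = v) → v = 0) {M : List (α × α)} (hM : IsMat M)
    (hcard : 2 * Fintype.card α ≤ 5 * M.length) :
    LinearMap.trace ℝ V (PMr ρ M) ≤ (2 : ℝ) ^ (-((k : ℝ) / 100)) * (Module.finrank ℝ V : ℝ) := by
  rw [LinearMap.IsProj.trace (isProj_PMr ρ M hM)]
  exact dim_le hρ heven hk hi (mtL_injective hM) (by rwa [Fintype.card_fin])

/-- the vectors fixed by the permutations of `B` -/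
def Inv (ρ : Perm α →* (V →ₗ[ℝ] V)) (B : Finset α) : Submodule ℝ V where
  carrier := {v | ∀ x ∈ B, ∀ y ∈ B, ρ (swap x y) v = v}
  add_mem' := by
    intro a b ha hb x hx y hy
    rw [map_add, ha x hx y hy, hb x hx y hy]
  zero_mem' := by intro x _ y _; simp
  smul_mem' := by
    intro c v hv x hx y hy
    rw [map_smul, hv x hx y hy]

/-- the span of the vectors fixed by `S_B` for some `B` with `|B| > N - k`. -/
def Low (ρ : Perm α →* (V →ₗ[ℝ] V)) (k : ℕ) : Submodule ℝ V :=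
  ⨆ B : Finset α, ⨆ _ : Fintype.card α < B.card + k, Inv ρ B

theorem mem_Low_orth (ρ : Perm α →* (V →ₗ[ℝ] V)) (k : ℕ) (v : V) :
    v ∈ (Low ρ k)ᗮ ↔ ∀ B : Finset α, Fintype.card α < B.card + k → ∀ u ∈ Inv ρ B,
      ⟪u, v⟫_ℝ = 0 := by
  unfold Low
  rw [← Submodule.iInf_orthogonal]
  simp only [Submodule.mem_iInf, Submodule.mem_orthogonal]
  constructor
  · intro h B hB u hu
    exact h B u (by rw [iSup_pos hB]; exact hu)
  · intro h B u hu
    by_cases hB : Fintype.card α < B.card + k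
    · rw [iSup_pos hB] at hu
      exact h B hB u hu
    · rw [iSup_neg hB, Submodule.mem_bot] at hu
      rw [hu, inner_zero_left]

theorem Low_orth_rho {ρ : Perm α →* (V →ₗ[ℝ] V)} (hρ : ∀ g v, ‖ρ g v‖ = ‖v‖) {k : ℕ} {v : V}
    (hv : v ∈ (Low ρ k)ᗮ) (g : Perm α) : ρ g v ∈ (Low ρ k)ᗮ := by
  rw [mem_Low_orth] at hv ⊢
  intro B hB u hu
  have h1 : ρ g (ρ g⁻¹ u) = u := by
    rw [← rho_mul, mul_inv_cancel, map_one]; rfl
  rw [← h1, inner_map hρ]
  apply hv (B.map g⁻¹.toEmbedding) (by rwa [card_map])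
  intro x hx y hy
  obtain ⟨x', hx', rfl⟩ := Finset.mem_map.mp hx
  obtain ⟨y', hy', rfl⟩ := Finset.mem_map.mp hy
  have h2 : swap (g⁻¹ x') (g⁻¹ y') * g⁻¹ = g⁻¹ * swap x' y' :=
    (Equiv.mul_swap_eq_swap_mul g⁻¹ x' y').symm
  show ρ (swap (g⁻¹ x') (g⁻¹ y')) (ρ g⁻¹ u) = ρ g⁻¹ u
  rw [← rho_mul, h2, rho_mul, hu x' hx' y' hy']

theorem Low_orth_Q {ρ : Perm α →* (V →ₗ[ℝ] V)} {k : ℕ} {Q : V →ₗ[ℝ] V} (hQs : Q.IsSymmetric)
    (hQc : ∀ g v, Q (ρ g v) = ρ g (Q v)) {v : V} (hv : v ∈ (Low ρ k)ᗮ) :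
    Q v ∈ (Low ρ k)ᗮ := by
  rw [mem_Low_orth] at hv ⊢
  intro B hB u hu
  rw [← hQs]
  apply hv B hB
  intro x hx y hy
  rw [← hQc, hu x hx y hy]

theorem quad_le [FiniteDimensional ℝ V] {ρ : Perm α →* (V →ₗ[ℝ] V)}
    (hρ : ∀ g v, ‖ρ g v‖ = ‖v‖) (heven : Even (Fintype.card α)) {k : ℕ} (hk : 400 ≤ k)
    {Q : V →ₗ[ℝ] V} (hQs : Q.IsSymmetric) (hQc : ∀ g v, Q (ρ g v) = ρ g (Q v))
    {κ : Type*} [Fintype κ] (p : κ → ℝ) (M : κ → List (α × α)) (hp : ∀ i, 0 ≤ p i)
    (hp1 : ∑ i, p i ≤ 1) (hM : ∀ i, IsMat (M i)) (hMl : ∀ i, 2 * Fintype.card α ≤ 5 * (M i).length)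
    (hle : ∀ v, ⟪Q v, v⟫_ℝ ≤ ∑ i, p i * ⟪PMr ρ (M i) v, v⟫_ℝ) {v : V} (hv : v ∈ (Low ρ k)ᗮ) :
    ⟪Q v, v⟫_ℝ ≤ (2 : ℝ) ^ (-((k : ℝ) / 100)) * ‖v‖ ^ 2 := by
  set L : Submodule ℝ V := (Low ρ k)ᗮ with hLdef
  let T : L →ₗ[ℝ] L := Q.restrict (fun v hv => Low_orth_Q hQs hQc hv)
  have hT : T.IsSymmetric := by
    intro a b
    exact hQs a b
  have key : ∀ (μ : ℝ) (v : L), v ≠ 0 → T v = μ • v → μ ≤ (2 : ℝ) ^ (-((k : ℝ) / 100)) := by
    intro μ v0 hv0 hTv0
    have hv0' : (v0 : V) ≠ 0 := by simpa using hv0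
    have hQv0 : Q (v0 : V) = μ • (v0 : V) := by
      have := congrArg (Subtype.val) hTv0
      simpa [T] using this
    let W : Submodule ℝ V := L ⊓ LinearMap.ker (Q - μ • LinearMap.id)
    have memW : ∀ u, u ∈ W ↔ u ∈ L ∧ Q u = μ • u := by
      intro u
      simp [W, sub_eq_zero]
    have hW : ∀ g, ∀ u ∈ W, ρ g u ∈ W := by
      intro g u hu
      rw [memW] at hu ⊢
      refine ⟨Low_orth_rho hρ hu.1 g, ?_⟩
      rw [hQc, hu.2, map_smul]
    let σ := restr ρ W hW
    have hσ : ∀ g (u : W), ‖σ g u‖ = ‖u‖ := fun g u => hρ g u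
    have hi : ∀ B : Finset α, Fintype.card α < B.card + k → ∀ u : W,
        (∀ x ∈ B, ∀ y ∈ B, σ (swap x y) u = u) → u = 0 := by
      intro B hB u hu
      have h1 : (u : V) ∈ Inv ρ B := by
        intro x hx y hy
        exact congrArg Subtype.val (hu x hx y hy)
      have h2 := (mem_Low_orth ρ k (u : V)).mp ((memW _).mp u.2).1 B hB u h1
      have h3 : (u : V) = 0 := inner_self_eq_zero.mp h2
      exact Subtype.ext h3
    have hpos : 0 < (Module.finrank ℝ W : ℝ) := by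
      have : 0 < Module.finrank ℝ W := by
        rw [Module.finrank_pos_iff_exists_ne_zero]
        exact ⟨⟨v0, (memW _).mpr ⟨v0.2, hQv0⟩⟩, fun h => hv0' (congrArg Subtype.val h)⟩
      exact_mod_cast this
    let b := stdOrthonormalBasis ℝ W
    have h1 : ∀ i, μ ≤ ∑ x, p x * ⟪b i, PMr σ (M x) (b i)⟫_ℝ := by
      intro i
      have h2 := hle (b i : V)
      have h3 : Q (b i : V) = μ • (b i : V) := ((memW _).mp (b i).2).2
      have h4 : ‖b i‖ = 1 := b.orthonormal.1 i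
      have h4' : ‖(b i : V)‖ = 1 := h4
      rw [h3, real_inner_smul_left, real_inner_self_eq_norm_sq, h4', one_pow, mul_one] at h2
      refine h2.trans (le_of_eq ?_)
      apply Finset.sum_congr rfl
      intro x _
      congr 1
      rw [← PMr_restr ρ W hW (M x) (b i), real_inner_comm]
      rfl
    have h5 : (Module.finrank ℝ W : ℝ) * μ ≤
        ∑ x, p x * LinearMap.trace ℝ W (PMr σ (M x)) := by
      calc (Module.finrank ℝ W : ℝ) * μ = ∑ i : Fin (Module.finrank ℝ W), μ := by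
            rw [Finset.sum_const, card_univ, Fintype.card_fin, nsmul_eq_mul]
        _ ≤ ∑ i : Fin (Module.finrank ℝ W), ∑ x, p x * ⟪b i, PMr σ (M x) (b i)⟫_ℝ :=
            Finset.sum_le_sum fun i _ => h1 i
        _ = _ := by
            rw [Finset.sum_comm]
            apply Finset.sum_congr rfl
            intro x _
            rw [← Finset.mul_sum, LinearMap.trace_eq_sum_inner (PMr σ (M x)) b]
    have h6 : ∑ x, p x * LinearMap.trace ℝ W (PMr σ (M x)) ≤
        (2 : ℝ) ^ (-((k : ℝ) / 100)) * (Module.finrank ℝ W : ℝ) := by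
      calc ∑ x, p x * LinearMap.trace ℝ W (PMr σ (M x))
          ≤ ∑ x, p x * ((2 : ℝ) ^ (-((k : ℝ) / 100)) * (Module.finrank ℝ W : ℝ)) :=
            Finset.sum_le_sum fun x _ => mul_le_mul_of_nonneg_left
              (trace_PMr_le hσ heven hk hi (hM x) (hMl x)) (hp x)
        _ = (∑ x, p x) * ((2 : ℝ) ^ (-((k : ℝ) / 100)) * (Module.finrank ℝ W : ℝ)) := by
            rw [Finset.sum_mul]
        _ ≤ 1 * ((2 : ℝ) ^ (-((k : ℝ) / 100)) * (Module.finrank ℝ W : ℝ)) :=
            mul_le_mul_of_nonneg_right hp1 (by positivity)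
        _ = _ := one_mul _
    have h7 : (Module.finrank ℝ W : ℝ) * μ ≤
        (Module.finrank ℝ W : ℝ) * (2 : ℝ) ^ (-((k : ℝ) / 100)) := by
      rw [mul_comm (Module.finrank ℝ W : ℝ) ((2 : ℝ) ^ (-((k : ℝ) / 100)))]
      exact h5.trans h6
    exact le_of_mul_le_mul_left h7 hpos
  exact H790.rayleigh_le T hT _ key ⟨v, hv⟩

end Vale.Agent.P162.H816

namespace Vale.Agent.P162.H816

open Vale.Agent.P162.S2.Abs

variable {α : Type} [Fintype α] [DecidableEq α]

/-- left translation as a representation -/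
noncomputable def ltHom (α : Type) [Fintype α] [DecidableEq α] :
    Perm α →* (FS α →ₗ[ℝ] FS α) where
  toFun g := lt g
  map_one' := by
    ext f h
    simp
  map_mul' g g' := by
    ext f h
    simp [mul_assoc]

theorem ltHom_apply (g : Perm α) (f : FS α) : ltHom α g f = lt g f := rfl

theorem norm_lt (g : Perm α) (f : FS α) : ‖lt g f‖ = ‖f‖ := by
  rw [EuclideanSpace.norm_eq, EuclideanSpace.norm_eq]
  congr 1
  simp only [lt_apply]
  exact Equiv.sum_comp (Equiv.mulLeft g⁻¹) (fun h => ‖f h‖ ^ 2)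

theorem inner_lt (g : Perm α) (f f' : FS α) : ⟪lt g f, f'⟫_ℝ = ⟪f, lt g⁻¹ f'⟫_ℝ := by
  have h1 := inner_map (σ := ltHom α) (fun g v => norm_lt g v) g f (lt g⁻¹ f')
  have h2 : ltHom α g (lt g⁻¹ f') = f' := by
    ext h
    simp [ltHom_apply]
  rw [h2] at h1
  exact h1

theorem op_symm {q : Perm α → ℝ} (hq : ∀ g, q g⁻¹ = q g) : (op q).IsSymmetric := by
  intro f f'
  unfold op
  simp only [LinearMap.sum_apply, LinearMap.smul_apply, sum_inner, inner_sum,
    real_inner_smul_left, real_inner_smul_right]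
  rw [← Equiv.sum_comp (Equiv.inv (Perm α))]
  apply Finset.sum_congr rfl
  intro g _
  simp only [Equiv.inv_apply]
  rw [hq, inner_lt, inv_inv]

theorem op_comm {q : Perm α → ℝ} (hq : ∀ x g, q (x * g * x⁻¹) = q g) (g : Perm α) (f : FS α) :
    op q (lt g f) = lt g (op q f) := by
  ext h
  rw [lt_apply, op_apply, op_apply]
  rw [← Equiv.sum_comp (MulAut.conj g).toEquiv]
  apply Finset.sum_congr rfl
  intro x _
  have h1 : (MulAut.conj g).toEquiv x = g * x * g⁻¹ := rfl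
  have h2 : g⁻¹ * ((g * x * g⁻¹)⁻¹ * h) = x⁻¹ * (g⁻¹ * h) := by group
  rw [h1, hq, lt_apply, h2]

/-- **(E)** the level inequality in the form of `S2/Iface.lean`. -/
theorem propE : PropE := by
  refine ⟨1 / 100, by norm_num, 400, ?_⟩
  intro α _ _ q κ hq k hk hkN f hf
  obtain ⟨ι, _, p, M, hp, hp1, hM, hMl, hle⟩ := hq.matching
  have h1 := quad_le (ρ := ltHom α) (fun g v => norm_lt g v) hq.even (k := k + 1) (by omega)
    (Q := op q) (op_symm hq.symm) (fun g v => op_comm hq.class_fn g v) p M hp hp1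
    (fun i => hM i) (fun i => by have := hMl i; omega) (fun v => hle v) (v := f) (by
      have h2 : Low (ltHom α) (k + 1) = LowS α k :=
        iSup_congr fun B => iSup_congr_Prop Nat.lt_succ_iff (fun _ => rfl)
      rw [h2]; exact hf)
  refine h1.trans ?_
  apply mul_le_mul_of_nonneg_right _ (by positivity)
  apply Real.rpow_le_rpow_of_exponent_le (by norm_num)
  push_cast
  linarith

end Vale.Agent.P162.H816
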