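import Vale.Agent.P162.H816.Dim

/-!
# Cross transpositions on the sign spaces
-/

open Equiv Finset
open scoped InnerProductSpace

namespace Vale.Agent.P162.H816

open Vale.Agent.P162.H474 (flip flip_mul flip_singleton flip_empty flip_inv flip_apply)

variable {ι : Type*} [Fintype ι] [DecidableEq ι]
variable {V : Type*} [NormedAddCommGroup V] [InnerProductSpace ℝ V]
variable (ρ : Perm (Bool × ι) →* (V →ₗ[ℝ] V))

omit [Fintype ι] in
theorem flip_singleton' (c : Bool) (e : ι) : flip {e} = swap (c, e) (!c, e) := by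
  cases c
  · exact flip_singleton e
  · rw [flip_singleton, swap_comm]; rfl

omit [Fintype ι] [DecidableEq ι] in
theorem rho_mul {α : Type*} (σ : Perm α →* (V →ₗ[ℝ] V)) (g g' : Perm α) (v : V) :
    σ (g * g') v = σ g (σ g' v) := by
  rw [map_mul]; rfl

variable {ρ}

omit [Fintype ι] [DecidableEq ι] in
/-- three points: if `u` is fixed by `(x x')` then `⟪u, (x y) u⟫ ≥ -½ ‖u‖²`. -/
theorem low_bound {α : Type*} [DecidableEq α] {σ : Perm α →* (V →ₗ[ℝ] V)}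
    (hσ : ∀ g v, ‖σ g v‖ = ‖v‖) {x x' y : α} (h1 : x ≠ x') (h2 : x ≠ y) (h3 : x' ≠ y)
    {u : V} (hu : σ (swap x x') u = u) : -(1 / 2) * ‖u‖ ^ 2 ≤ ⟪u, σ (swap x y) u⟫_ℝ := by
  have hsw : ∀ a b : α, swap a b * swap a b = 1 := fun a b => swap_mul_self a b
  have e1 : swap x' y = swap x x' * swap x y * swap x x' := by
    have := Equiv.mul_swap_eq_swap_mul (swap x x') x y
    rw [swap_apply_left, swap_apply_of_ne_of_ne (Ne.symm h2) (Ne.symm h3)] at this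
    rw [this, mul_assoc, hsw, mul_one]
  have e2 : swap x y * swap x' y = swap x x' * swap x y := by
    have := Equiv.mul_swap_eq_swap_mul (swap x y) x' y
    rw [swap_apply_right, swap_apply_of_ne_of_ne (Ne.symm h1) h3] at this
    rw [this, swap_comm x' x]
  have i1 : ⟪u, σ (swap x' y) u⟫_ℝ = ⟪u, σ (swap x y) u⟫_ℝ := by
    rw [e1, rho_mul, rho_mul, hu, ← inner_invol hσ (hsw x x'), hu]
  have i2 : ⟪σ (swap x y) u, σ (swap x' y) u⟫_ℝ = ⟪u, σ (swap x y) u⟫_ℝ := by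
    rw [inner_invol hσ (hsw x y), ← rho_mul, e2, rho_mul, ← inner_invol hσ (hsw x x'), hu]
  have h := real_inner_self_nonneg (x := u + σ (swap x y) u + σ (swap x' y) u)
  have h5 : ⟪u, u⟫_ℝ = ‖u‖ ^ 2 := real_inner_self_eq_norm_sq u
  have h6 : ⟪σ (swap x y) u, σ (swap x y) u⟫_ℝ = ‖u‖ ^ 2 := by
    rw [real_inner_self_eq_norm_sq, hσ]
  have h7 : ⟪σ (swap x' y) u, σ (swap x' y) u⟫_ℝ = ‖u‖ ^ 2 := by
    rw [real_inner_self_eq_norm_sq, hσ]
  have c1 : ⟪σ (swap x y) u, u⟫_ℝ = ⟪u, σ (swap x y) u⟫_ℝ := real_inner_comm _ _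
  have c2 : ⟪σ (swap x' y) u, u⟫_ℝ = ⟪u, σ (swap x' y) u⟫_ℝ := real_inner_comm _ _
  have c3 : ⟪σ (swap x' y) u, σ (swap x y) u⟫_ℝ = ⟪σ (swap x y) u, σ (swap x' y) u⟫_ℝ :=
    real_inner_comm _ _
  simp only [inner_add_left, inner_add_right] at h
  linarith

omit [Fintype ι] in
/-- a cross transposition preserves the signs of the other pairs. -/
theorem tp_cross {K : Finset ι} {u : V} (hu : u ∈ U ρ K) {c c' : Bool} {e f i : ι} (hi : i ≠ e)
    (hi' : i ≠ f) : tp ρ i (ρ (swap (c, e) (c', f)) u) = sgn K i • ρ (swap (c, e) (c', f)) u := by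
  have h1 : flip {i} * swap (c, e) (c', f) = swap (c, e) (c', f) * flip {i} := by
    have h2 := Equiv.mul_swap_eq_swap_mul (flip {i}) (c, e) (c', f)
    have h3 : flip {i} (c, e) = (c, e) := by
      rw [flip_apply]; simp [Ne.symm hi]
    have h4 : flip {i} (c', f) = (c', f) := by
      rw [flip_apply]; simp [Ne.symm hi']
    rw [h3, h4] at h2
    exact h2
  unfold tp
  rw [← rho_mul, h1, rho_mul]
  have h5 : ρ (flip {i}) u = sgn K i • u := hu i
  rw [h5, map_smul]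

theorem E_cross {K K' : Finset ι} {u : V} (hu : u ∈ U ρ K) {c c' : Bool} {e f : ι}
    (h1 : K' ≠ K) (h2 : K' ≠ insert e K) (h3 : K' ≠ insert f K) (h4 : K' ≠ insert e (insert f K))
    (he : e ∉ K) (hf : f ∉ K) :
    E ρ K' (ρ (swap (c, e) (c', f)) u) = 0 := by
  by_contra hcon
  have key : ∀ i, i ≠ e → i ≠ f → (i ∈ K ↔ i ∈ K') := by
    intro i hi hi'
    by_contra hne
    apply hcon
    apply E_eq_zero_of_tp ρ (tp_cross hu hi hi')
    unfold sgn
    by_cases h1 : i ∈ K <;> by_cases h2 : i ∈ K' <;> simp [h1, h2] at hne ⊢ <;> norm_num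
  by_cases h5 : e ∈ K' <;> by_cases h6 : f ∈ K'
  · apply h4
    ext i
    by_cases hi : i = e
    · subst hi; simp [h5]
    · by_cases hi' : i = f
      · subst hi'; simp [h6]
      · simp [hi, hi', key i hi hi']
  · apply h2
    ext i
    by_cases hi : i = e
    · subst hi; simp [h5]
    · by_cases hi' : i = f
      · subst hi'; simp [h6, hi, hf]
      · simp [hi, key i hi hi']
  · apply h3
    ext i
    by_cases hi : i = e
    · subst hi
      by_cases hi' : i = f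
      · subst hi'; exact absurd h6 h5
      · simp [h5, hi', he]
    · by_cases hi' : i = f
      · subst hi'; simp [h6]
      · simp [hi', key i hi hi']
  · apply h1
    ext i
    by_cases hi : i = e
    · subst hi; simp [h5, he]
    · by_cases hi' : i = f
      · subst hi'; simp [h6, hf]
      · rw [key i hi hi']

/-- the energy outside `K` of the transported vector. -/
theorem norm_sq_le_cross (hρ : ∀ g v, ‖ρ g v‖ = ‖v‖) {K : Finset ι} {u : V} (hu : u ∈ U ρ K)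
    {c c' : Bool} {e f : ι} (he : e ∉ K) (hf : f ∉ K) :
    ‖u‖ ^ 2 ≤ ‖E ρ K (ρ (swap (c, e) (c', f)) u)‖ ^ 2 +
      (‖E ρ (insert e K) (ρ (swap (c, e) (c', f)) u)‖ ^ 2 +
      ‖E ρ (insert f K) (ρ (swap (c, e) (c', f)) u)‖ ^ 2 +
      ‖E ρ (insert e (insert f K)) (ρ (swap (c, e) (c', f)) u)‖ ^ 2) := by
  rw [← hρ (swap (c, e) (c', f)) u, norm_sq_eq_sum hρ]
  set v := ρ (swap (c, e) (c', f)) u
  have hsub : ∑ K' : Finset ι, ‖E ρ K' v‖ ^ 2 =
      ∑ K' ∈ ({K, insert e K, insert f K, insert e (insert f K)} : Finset (Finset ι)),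
        ‖E ρ K' v‖ ^ 2 := by
    symm
    apply Finset.sum_subset (Finset.subset_univ _)
    intro K' _ hK'
    simp only [Finset.mem_insert, Finset.mem_singleton, not_or] at hK'
    rw [E_cross hu hK'.1 hK'.2.1 hK'.2.2.1 hK'.2.2.2 he hf]
    simp
  rw [hsub]
  have ins : ∀ (a : Finset ι) (S : Finset (Finset ι)) (g : Finset ι → ℝ), (∀ x, 0 ≤ g x) →
      ∑ x ∈ insert a S, g x ≤ g a + ∑ x ∈ S, g x := by
    intro a S g hg
    by_cases ha : a ∈ S
    · rw [Finset.insert_eq_of_mem ha]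
      linarith [hg a]
    · rw [Finset.sum_insert ha]
  have hg : ∀ x, 0 ≤ ‖E ρ x v‖ ^ 2 := fun x => by positivity
  refine (ins _ _ _ hg).trans ?_
  refine add_le_add le_rfl ?_
  refine (ins _ _ _ hg).trans ?_
  rw [add_assoc]
  refine add_le_add le_rfl ?_
  refine (ins _ _ _ hg).trans ?_
  rw [Finset.sum_singleton]

/-- Bessel. -/
theorem bessel (hρ : ∀ g v, ‖ρ g v‖ = ‖v‖) [FiniteDimensional ℝ V] (K' : Finset ι)
    {g : Perm (Bool × ι)} (hg : g * g = 1) {κ : Type*} [Fintype κ] {b : κ → V}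
    (hb : Orthonormal ℝ b) : ∑ i, ‖E ρ K' (ρ g (b i))‖ ^ 2 ≤ w ρ K' := by
  let c := stdOrthonormalBasis ℝ (U ρ K')
  have h1 : ∀ i, ‖E ρ K' (ρ g (b i))‖ ^ 2 = ∑ l, ⟪ρ g (c l : V), b i⟫_ℝ ^ 2 := by
    intro i
    have h2 := c.sum_sq_norm_inner_right (⟨E ρ K' (ρ g (b i)), E_mem ρ K' _⟩ : U ρ K')
    have h3 : ‖(⟨E ρ K' (ρ g (b i)), E_mem ρ K' _⟩ : U ρ K')‖ = ‖E ρ K' (ρ g (b i))‖ := rfl
    rw [h3] at h2
    rw [← h2]
    apply Finset.sum_congr rfl
    intro l _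
    have h4 : ⟪c l, (⟨E ρ K' (ρ g (b i)), E_mem ρ K' _⟩ : U ρ K')⟫_ℝ =
        ⟪(c l : V), E ρ K' (ρ g (b i))⟫_ℝ := rfl
    rw [h4, ← E_symm hρ, E_of_mem ρ (c l).2, ← inner_invol hρ hg, Real.norm_eq_abs, sq_abs]
  simp only [h1]
  rw [Finset.sum_comm]
  have h5 : ∀ l, ∑ i, ⟪ρ g (c l : V), b i⟫_ℝ ^ 2 ≤ 1 := by
    intro l
    have h6 := hb.sum_inner_products_le (ρ g (c l : V)) (s := Finset.univ)
    have h7 : ‖ρ g (c l : V)‖ = 1 := by
      rw [hρ]
      have h8 : ‖c l‖ = 1 := c.orthonormal.1 l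
      exact h8
    rw [h7, one_pow] at h6
    refine le_trans (le_of_eq ?_) h6
    apply Finset.sum_congr rfl
    intro i _
    rw [Real.norm_eq_abs, sq_abs, real_inner_comm]
  calc ∑ l, ∑ i, ⟪ρ g (c l : V), b i⟫_ℝ ^ 2 ≤ ∑ l : Fin (Module.finrank ℝ (U ρ K')), (1 : ℝ) :=
        Finset.sum_le_sum fun l _ => h5 l
    _ = w ρ K' := by simp [w]

/-- the compression of `ρ g` to `U K` -/
noncomputable def T (ρ : Perm (Bool × ι) →* (V →ₗ[ℝ] V)) (K : Finset ι) (g : Perm (Bool × ι)) :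
    U ρ K →ₗ[ℝ] U ρ K :=
  LinearMap.codRestrict (U ρ K) ((E ρ K).comp ((ρ g).comp (U ρ K).subtype))
    (fun _ => E_mem ρ K _)

theorem T_apply (K : Finset ι) (g : Perm (Bool × ι)) (u : U ρ K) :
    (T ρ K g u : V) = E ρ K (ρ g u) := rfl

theorem inner_T (hρ : ∀ g v, ‖ρ g v‖ = ‖v‖) (K : Finset ι) (g : Perm (Bool × ι)) (u u' : U ρ K) :
    ⟪u', T ρ K g u⟫_ℝ = ⟪(u' : V), ρ g u⟫_ℝ := by
  have h1 : ⟪u', T ρ K g u⟫_ℝ = ⟪(u' : V), E ρ K (ρ g u)⟫_ℝ := rfl
  rw [h1, ← E_symm hρ, E_of_mem ρ u'.2]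

theorem T_symm (hρ : ∀ g v, ‖ρ g v‖ = ‖v‖) (K : Finset ι) {g : Perm (Bool × ι)} (hg : g * g = 1) :
    (T ρ K g).IsSymmetric := by
  intro u u'
  rw [inner_T hρ, real_inner_comm, inner_T hρ, ← inner_invol hρ hg, real_inner_comm]

/-- the trace of the compression -/
noncomputable def tr (ρ : Perm (Bool × ι) →* (V →ₗ[ℝ] V)) (K : Finset ι) (g : Perm (Bool × ι)) :
    ℝ := LinearMap.trace ℝ (U ρ K) (T ρ K g)

theorem tr_eq (hρ : ∀ g v, ‖ρ g v‖ = ‖v‖) (K : Finset ι) (g : Perm (Bool × ι)) {κ : Type*}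
    [Fintype κ] (b : OrthonormalBasis κ ℝ (U ρ K)) :
    tr ρ K g = ∑ i, ⟪(b i : V), ρ g (b i)⟫_ℝ := by
  unfold tr
  rw [LinearMap.trace_eq_sum_inner (T ρ K g) b]
  exact Finset.sum_congr rfl fun i _ => inner_T hρ K g _ _

theorem tr_cross [FiniteDimensional ℝ V] (hρ : ∀ g v, ‖ρ g v‖ = ‖v‖) {K : Finset ι} {c c' : Bool}
    {e f : ι} (he : e ∉ K) (hf : f ∉ K) (hef : e ≠ f) :
    (w ρ K : ℝ) - tr ρ K (swap (c, e) (c', f)) ≤
      2 * ((w ρ (insert e K) : ℝ) + w ρ (insert f K) + w ρ (insert e (insert f K))) := by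
  set g : Perm (Bool × ι) := swap (c, e) (c', f) with hgdef
  have hg : g * g = 1 := swap_mul_self _ _
  have hT := T_symm hρ K hg
  let b := hT.eigenvectorBasis (rfl : Module.finrank ℝ (U ρ K) = _)
  let t := hT.eigenvalues (rfl : Module.finrank ℝ (U ρ K) = _)
  have hb : ∀ i, T ρ K g (b i) = t i • b i := fun i => hT.apply_eigenvectorBasis rfl i
  have hn : ∀ i, ‖(b i : V)‖ = 1 := by
    intro i
    have h8 : ‖b i‖ = 1 := b.orthonormal.1 i
    exact h8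
  have hinn : ∀ i, ⟪(b i : V), ρ g (b i)⟫_ℝ = t i := by
    intro i
    rw [← inner_T hρ, hb i, real_inner_smul_right, real_inner_self_eq_norm_sq]
    have h8 : ‖b i‖ = 1 := b.orthonormal.1 i
    rw [h8]; ring
  have hE : ∀ i, ‖E ρ K (ρ g (b i))‖ ^ 2 = t i ^ 2 := by
    intro i
    have h1 : ‖T ρ K g (b i)‖ = ‖E ρ K (ρ g (b i))‖ := rfl
    rw [← h1, hb i, norm_smul]
    have h8 : ‖b i‖ = 1 := b.orthonormal.1 i
    rw [h8, mul_one, Real.norm_eq_abs, sq_abs]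
  have hlow : ∀ i, -(1 / 2) ≤ t i := by
    intro i
    have h1 := low_bound hρ (x := (c, e)) (x' := (!c, e)) (y := (c', f)) (u := (b i : V))
      (by simp) (by simp [hef]) (by simp [hef]) (by
        rw [← flip_singleton']
        have := (b i).2 e
        rw [show sgn K e = 1 by simp [sgn, he], one_smul] at this
        exact this)
    rw [hn i, ← hgdef, hinn i] at h1
    linarith
  have hup : ∀ i, t i ≤ 1 := by
    intro i
    rw [← hinn i]
    refine (real_inner_le_norm _ _).trans ?_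
    rw [hρ, hn i, mul_one]
  have hmain : ∀ i, 1 - t i ≤ 2 * (‖E ρ (insert e K) (ρ g (b i))‖ ^ 2 +
      ‖E ρ (insert f K) (ρ g (b i))‖ ^ 2 + ‖E ρ (insert e (insert f K)) (ρ g (b i))‖ ^ 2) := by
    intro i
    have h1 := norm_sq_le_cross hρ (b i).2 (c := c) (c' := c') he hf
    rw [← hgdef, hE i, hn i] at h1
    have h2 : 0 ≤ (1 - t i) * (t i + 1 / 2) :=
      mul_nonneg (by linarith [hup i]) (by linarith [hlow i])
    nlinarith
  have horth : Orthonormal ℝ (fun i => (b i : V)) :=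
    b.orthonormal.comp_linearIsometry (U ρ K).subtypeₗᵢ
  have hB1 := bessel hρ (insert e K) hg horth
  have hB2 := bessel hρ (insert f K) hg horth
  have hB3 := bessel hρ (insert e (insert f K)) hg horth
  have hcard : (w ρ K : ℝ) = ∑ i : Fin (Module.finrank ℝ (U ρ K)), (1 : ℝ) := by simp [w]
  have htr : tr ρ K g = ∑ i, t i := by
    rw [tr_eq hρ K g b]
    exact Finset.sum_congr rfl fun i _ => hinn i
  rw [htr, hcard, ← Finset.sum_sub_distrib]
  calc ∑ i, (1 - t i) ≤ ∑ i, 2 * (‖E ρ (insert e K) (ρ g (b i))‖ ^ 2 +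
      ‖E ρ (insert f K) (ρ g (b i))‖ ^ 2 + ‖E ρ (insert e (insert f K)) (ρ g (b i))‖ ^ 2) :=
        Finset.sum_le_sum fun i _ => hmain i
    _ = 2 * (∑ i, ‖E ρ (insert e K) (ρ g (b i))‖ ^ 2 + ∑ i, ‖E ρ (insert f K) (ρ g (b i))‖ ^ 2
        + ∑ i, ‖E ρ (insert e (insert f K)) (ρ g (b i))‖ ^ 2) := by
        rw [← Finset.mul_sum, Finset.sum_add_distrib, Finset.sum_add_distrib]
    _ ≤ _ := by gcongr

theorem tr_pair (hρ : ∀ g v, ‖ρ g v‖ = ‖v‖) [FiniteDimensional ℝ V] {K : Finset ι} {c c' : Bool}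
    {e : ι} (he : e ∉ K) (hc : c ≠ c') :
    (w ρ K : ℝ) - tr ρ K (swap (c, e) (c', e)) = 0 := by
  have h1 : c' = !c := by cases c <;> cases c' <;> simp_all
  subst h1
  rw [tr_eq hρ K _ (stdOrthonormalBasis ℝ (U ρ K)), ← flip_singleton']
  have h2 : ∀ i, ⟪(stdOrthonormalBasis ℝ (U ρ K) i : V),
      ρ (flip {e}) (stdOrthonormalBasis ℝ (U ρ K) i)⟫_ℝ = 1 := by
    intro i
    have h3 := (stdOrthonormalBasis ℝ (U ρ K) i).2 e
    rw [show sgn K e = 1 by simp [sgn, he], one_smul] at h3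
    unfold tp at h3
    rw [h3, real_inner_self_eq_norm_sq]
    have h8 : ‖stdOrthonormalBasis ℝ (U ρ K) i‖ = 1 := (stdOrthonormalBasis ℝ (U ρ K)).orthonormal.1 i
    have h9 : ‖(stdOrthonormalBasis ℝ (U ρ K) i : V)‖ = 1 := h8
    rw [h9, one_pow]
  simp only [h2]
  simp [w]

end Vale.Agent.P162.H816
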