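import Vale.Agent.P162.H816.Proj

/-!
# Dimensions of the sign spaces
-/

open Equiv Finset
open scoped InnerProductSpace

namespace Vale.Agent.P162.H816

open Vale.Agent.P162.H474 (flip flip_mul flip_singleton flip_empty flip_inv)

variable {ι : Type*} [Fintype ι] [DecidableEq ι]
variable {V : Type*} [NormedAddCommGroup V] [InnerProductSpace ℝ V] [FiniteDimensional ℝ V]
variable (ρ : Perm (Bool × ι) →* (V →ₗ[ℝ] V))

/-- the dimension of the sign space -/
noncomputable def w (K : Finset ι) : ℕ := Module.finrank ℝ (U ρ K)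

omit [FiniteDimensional ℝ V] in
theorem isProj_E (K : Finset ι) : LinearMap.IsProj (U ρ K) (E ρ K) where
  map_mem := fun v => E_mem ρ K v
  map_id := fun _ hv => E_of_mem ρ hv

theorem trace_E (K : Finset ι) : LinearMap.trace ℝ V (E ρ K) = w ρ K :=
  LinearMap.IsProj.trace (isProj_E ρ K)

/-- the vectors fixed by the pair transpositions of `M` -/
def FixM (M : Finset ι) : Submodule ℝ V where
  carrier := {v | ∀ i ∈ M, tp ρ i v = v}
  add_mem' := by
    intro a b ha hb i hi
    rw [map_add, ha i hi, hb i hi]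
  zero_mem' := by intro i _; simp
  smul_mem' := by
    intro c x hx i hi
    rw [map_smul, hx i hi]

omit [FiniteDimensional ℝ V] in
theorem isProj_FixM (M : Finset ι) :
    LinearMap.IsProj (FixM ρ M) (∑ K with Disjoint K M, E ρ K) where
  map_mem := by
    intro v i hi
    rw [LinearMap.sum_apply, map_sum]
    apply Finset.sum_congr rfl
    intro K hK
    rw [Finset.mem_filter] at hK
    rw [tp_E]
    have : i ∉ K := fun h => (Finset.disjoint_left.mp hK.2 h) hi
    simp [sgn, this]
  map_id := by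
    intro v hv
    have h := sum_E ρ v
    rw [← Finset.sum_filter_add_sum_filter_not univ (fun K => Disjoint K M)] at h
    rw [LinearMap.sum_apply]
    have h0 : ∑ K with ¬ Disjoint K M, E ρ K v = 0 := by
      apply Finset.sum_eq_zero
      intro K hK
      rw [Finset.mem_filter] at hK
      obtain ⟨i, hiK, hiM⟩ := Finset.not_disjoint_iff.mp hK.2
      apply E_eq_zero_of_tp ρ (i := i) (s := 1)
      · rw [one_smul]; exact hv i hiM
      · simp only [sgn, hiK, if_true]; norm_num
    rw [h0, add_zero] at h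
    exact h

theorem finrank_FixM (M : Finset ι) :
    (Module.finrank ℝ (FixM ρ M) : ℝ) = ∑ K with Disjoint K M, (w ρ K : ℝ) := by
  rw [← LinearMap.IsProj.trace (isProj_FixM ρ M), map_sum]
  exact Finset.sum_congr rfl fun K _ => trace_E ρ K

theorem finrank_eq_sum : (Module.finrank ℝ V : ℝ) = ∑ K : Finset ι, (w ρ K : ℝ) := by
  have h1 : (∑ K : Finset ι, E ρ K) = LinearMap.id := by
    ext v
    rw [LinearMap.sum_apply, sum_E]
    rfl
  rw [← LinearMap.trace_id ℝ V, ← h1, map_sum]
  exact Finset.sum_congr rfl fun K _ => trace_E ρ K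

omit [Fintype ι] [FiniteDimensional ℝ V] in
theorem rho_inj {α : Type*} (σ : Perm α →* (V →ₗ[ℝ] V)) (g : Perm α) :
    Function.Injective (σ g) := by
  intro v v' h
  have h1 : ∀ x, σ g⁻¹ (σ g x) = x := by
    intro x
    have : σ (g⁻¹ * g) = σ g⁻¹ * σ g := map_mul σ _ _
    rw [inv_mul_cancel, map_one] at this
    exact (congrArg (fun f => f x) this).symm
  rw [← h1 v, h, h1]

omit [Fintype ι] in
theorem conj_flip (π : Perm ι) (i : ι) :
    (Equiv.prodCongr (1 : Perm Bool) π : Perm (Bool × ι)) * flip {i} =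
      flip {π i} * (Equiv.prodCongr (1 : Perm Bool) π : Perm (Bool × ι)) := by
  ext ⟨c, z⟩
  · simp [Vale.Agent.P162.H474.flip_apply]
  · simp [Vale.Agent.P162.H474.flip_apply]

omit [Fintype ι] in
theorem w_le_of_perm (K : Finset ι) (π : Perm ι) : w ρ K ≤ w ρ (K.map π.toEmbedding) := by
  unfold w
  let g : Perm (Bool × ι) := Equiv.prodCongr (1 : Perm Bool) π
  have hmem : ∀ v : U ρ K, ρ g v ∈ U ρ (K.map π.toEmbedding) := by
    rintro ⟨v, hv⟩ i
    have h1 : ρ (g * flip {π.symm i}) = ρ g * ρ (flip {π.symm i}) := map_mul ρ _ _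
    have h2 : g * flip {π.symm i} = flip {i} * g := by
      have := conj_flip π (π.symm i)
      rwa [Equiv.apply_symm_apply] at this
    rw [h2, map_mul] at h1
    have h3 := congrArg (fun f => f v) h1
    have h4 : ρ (flip {i}) (ρ g v) = ρ g (ρ (flip {π.symm i}) v) := h3
    show tp ρ i (ρ g v) = _
    unfold tp
    rw [h4]
    have h5 : ρ (flip {π.symm i}) v = sgn K (π.symm i) • v := hv (π.symm i)
    rw [h5, map_smul]
    congr 1
    unfold sgn
    have : π.symm i ∈ K ↔ i ∈ K.map π.toEmbedding := by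
      rw [Finset.mem_map_equiv]
    simp only [this]
  let f : U ρ K →ₗ[ℝ] U ρ (K.map π.toEmbedding) :=
    LinearMap.codRestrict _ ((ρ g).comp (U ρ K).subtype) hmem
  apply LinearMap.finrank_le_finrank_of_injective (f := f)
  intro v v' h
  have h1 : ρ g v = ρ g v' := congrArg Subtype.val h
  exact Subtype.ext (rho_inj ρ g h1)

omit [Fintype ι] in
theorem w_eq_of_card {K K' : Finset ι} (h : K.card = K'.card) : w ρ K = w ρ K' := by
  obtain ⟨π, hπ⟩ := Equiv.Perm.exists_map_finset_eq K K' h
  obtain ⟨π', hπ'⟩ := Equiv.Perm.exists_map_finset_eq K' K h.symm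
  apply le_antisymm
  · have := w_le_of_perm ρ K π
    rwa [hπ] at this
  · have := w_le_of_perm ρ K' π'
    rwa [hπ'] at this

end Vale.Agent.P162.H816
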