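import Mathlib

/-!
# Numerics for the dimension bound
-/

open Finset

namespace Vale.Agent.P162.H816

theorem choose_five {n h : ℕ} (hn : 5 * n ≤ h) (j : ℕ) : 5 ^ j * n.choose j ≤ h.choose j := by
  induction j with
  | zero => simp
  | succ j ih =>
    have h1 := Nat.choose_succ_right_eq n j
    have h2 := Nat.choose_succ_right_eq h j
    have h3 : 5 * (n - j) ≤ h - j := by omega
    have h4 : 5 ^ (j + 1) * n.choose (j + 1) * (j + 1) ≤ h.choose (j + 1) * (j + 1) := by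
      calc 5 ^ (j + 1) * n.choose (j + 1) * (j + 1)
          = 5 ^ (j + 1) * (n.choose (j + 1) * (j + 1)) := by ring
        _ = (5 ^ j * n.choose j) * (5 * (n - j)) := by rw [h1]; ring
        _ ≤ h.choose j * (h - j) := Nat.mul_le_mul ih h3
        _ = h.choose (j + 1) * (j + 1) := h2.symm
    exact Nat.le_of_mul_le_mul_right h4 (Nat.succ_pos j)

/-- the recursion for `x j = C(h,j) w j`. -/
theorem x_step {h k j : ℕ} {w : ℕ → ℝ} (hw : ∀ n, 0 ≤ w n) (hk : 400 ≤ k) (hkh : k ≤ 2 * h)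
    (hj : 100 * j ≤ k)
    (hrec : ((k : ℝ) - 2 * j) * w j ≤ 4 * ((h : ℝ) - j - 1) * (2 * w (j + 1) + w (j + 2))) :
    (h.choose j : ℝ) * w j ≤ (h.choose (j + 1) : ℝ) * w (j + 1) / 8 +
      (h.choose (j + 2) : ℝ) * w (j + 2) / 64 := by
  have c0 : (0 : ℝ) ≤ h.choose j := Nat.cast_nonneg _
  have c1 : (0 : ℝ) ≤ h.choose (j + 1) := Nat.cast_nonneg _
  have c2 : (0 : ℝ) ≤ h.choose (j + 2) := Nat.cast_nonneg _
  have hkr : (400 : ℝ) ≤ k := by exact_mod_cast hk
  have hkhr : (k : ℝ) ≤ 2 * h := by exact_mod_cast hkh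
  have hjr : 100 * (j : ℝ) ≤ k := by exact_mod_cast hj
  have hj0 : (0 : ℝ) ≤ j := Nat.cast_nonneg _
  have e1 : (h.choose (j + 1) : ℝ) * (j + 1) = h.choose j * ((h : ℝ) - j) := by
    have h2 := Nat.choose_succ_right_eq h j
    have h3 : ((h - j : ℕ) : ℝ) = (h : ℝ) - j := Nat.cast_sub (by omega)
    rw [← h3]
    exact_mod_cast h2
  have e2 : (h.choose (j + 2) : ℝ) * (j + 2) = h.choose (j + 1) * ((h : ℝ) - j - 1) := by
    have h2 := Nat.choose_succ_right_eq h (j + 1)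
    have h3 : ((h - (j + 1) : ℕ) : ℝ) = (h : ℝ) - j - 1 := by
      rw [Nat.cast_sub (by omega)]; push_cast; ring
    rw [← h3]
    have h4 : (h.choose (j + 2) : ℝ) * ((j + 1 + 1 : ℕ) : ℝ) =
        h.choose (j + 1) * ((h - (j + 1) : ℕ) : ℝ) := by exact_mod_cast h2
    rw [← h4]; push_cast; ring
  have ht : 0 < (k : ℝ) - 2 * j := by linarith
  have hhj : 0 < (h : ℝ) - j := by linarith
  have hhj1 : 0 < (h : ℝ) - j - 1 := by linarith
  -- coefficient bounds
  have b1 : 64 * ((j : ℝ) + 1) ≤ (k : ℝ) - 2 * j := by linarith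
  have b2 : 256 * (((j : ℝ) + 1) * (j + 2)) ≤ ((h : ℝ) - j) * ((k : ℝ) - 2 * j) := by
    have h5 : 49 * (k : ℝ) / 100 ≤ (h : ℝ) - j := by linarith
    have h6 : 98 * (k : ℝ) / 100 ≤ (k : ℝ) - 2 * j := by linarith
    have h7 : (j : ℝ) + 1 ≤ k / 80 := by linarith
    have h8 : (j : ℝ) + 2 ≤ 3 * k / 200 := by linarith
    have h9 : ((j : ℝ) + 1) * (j + 2) ≤ k / 80 * (3 * k / 200) :=
      mul_le_mul h7 h8 (by linarith) (by linarith)
    have h10 : 49 * (k : ℝ) / 100 * (98 * (k : ℝ) / 100) ≤ ((h : ℝ) - j) * ((k : ℝ) - 2 * j) :=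
      mul_le_mul h5 h6 (by linarith) (by linarith)
    nlinarith
  -- main
  have m1 : (h.choose j : ℝ) * ((k : ℝ) - 2 * j) * w j ≤
      8 * ((h.choose j : ℝ) * ((h : ℝ) - j - 1)) * w (j + 1) +
      4 * ((h.choose j : ℝ) * ((h : ℝ) - j - 1)) * w (j + 2) := by
    have := mul_le_mul_of_nonneg_left hrec c0
    nlinarith
  have m2 : 8 * ((h.choose j : ℝ) * ((h : ℝ) - j - 1)) * w (j + 1) ≤
      ((k : ℝ) - 2 * j) * ((h.choose (j + 1) : ℝ) * w (j + 1) / 8) := by
    have h11 : (h.choose j : ℝ) * ((h : ℝ) - j - 1) ≤ (h.choose (j + 1) : ℝ) * (j + 1) := by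
      rw [e1]
      exact mul_le_mul_of_nonneg_left (by linarith) c0
    have h12 : 8 * ((h.choose j : ℝ) * ((h : ℝ) - j - 1)) ≤
        ((k : ℝ) - 2 * j) * (h.choose (j + 1) : ℝ) / 8 := by
      have h13 := mul_le_mul_of_nonneg_left b1 c1
      nlinarith
    calc 8 * ((h.choose j : ℝ) * ((h : ℝ) - j - 1)) * w (j + 1)
        ≤ ((k : ℝ) - 2 * j) * (h.choose (j + 1) : ℝ) / 8 * w (j + 1) :=
          mul_le_mul_of_nonneg_right h12 (hw _)
      _ = _ := by ring
  have m3 : 4 * ((h.choose j : ℝ) * ((h : ℝ) - j - 1)) * w (j + 2) ≤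
      ((k : ℝ) - 2 * j) * ((h.choose (j + 2) : ℝ) * w (j + 2) / 64) := by
    have h14 : ((h : ℝ) - j) * (4 * ((h.choose j : ℝ) * ((h : ℝ) - j - 1))) ≤
        ((h : ℝ) - j) * (((k : ℝ) - 2 * j) * (h.choose (j + 2) : ℝ) / 64) := by
      have h15 : ((h : ℝ) - j) * (4 * ((h.choose j : ℝ) * ((h : ℝ) - j - 1))) =
          4 * (h.choose (j + 2) : ℝ) * (((j : ℝ) + 1) * (j + 2)) := by
        calc ((h : ℝ) - j) * (4 * ((h.choose j : ℝ) * ((h : ℝ) - j - 1)))
            = 4 * ((h.choose j : ℝ) * ((h : ℝ) - j)) * ((h : ℝ) - j - 1) := by ring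
          _ = 4 * ((h.choose (j + 1) : ℝ) * (j + 1)) * ((h : ℝ) - j - 1) := by rw [e1]
          _ = 4 * ((h.choose (j + 1) : ℝ) * ((h : ℝ) - j - 1)) * (j + 1) := by ring
          _ = _ := by rw [← e2]; ring
      rw [h15]
      have h16 := mul_le_mul_of_nonneg_left b2 c2
      nlinarith
    have h17 := le_of_mul_le_mul_left h14 hhj
    calc 4 * ((h.choose j : ℝ) * ((h : ℝ) - j - 1)) * w (j + 2)
        ≤ ((k : ℝ) - 2 * j) * (h.choose (j + 2) : ℝ) / 64 * w (j + 2) :=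
          mul_le_mul_of_nonneg_right h17 (hw _)
      _ = _ := by ring
  have m4 : ((k : ℝ) - 2 * j) * ((h.choose j : ℝ) * w j) ≤ ((k : ℝ) - 2 * j) *
      ((h.choose (j + 1) : ℝ) * w (j + 1) / 8 + (h.choose (j + 2) : ℝ) * w (j + 2) / 64) := by
    rw [mul_add]
    calc ((k : ℝ) - 2 * j) * ((h.choose j : ℝ) * w j)
        = (h.choose j : ℝ) * ((k : ℝ) - 2 * j) * w j := by ring
      _ ≤ _ := m1
      _ ≤ _ := add_le_add m2 m3
  exact le_of_mul_le_mul_left m4 ht

theorem x_bound {x : ℕ → ℝ} {D : ℝ} {J : ℕ} (hD : 0 ≤ D) (hx : ∀ j, x j ≤ D)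
    (hrec : ∀ j ≤ J, x j ≤ x (j + 1) / 8 + x (j + 2) / 64) (i : ℕ) :
    (∀ j, j + i = J + 1 → x j ≤ D * (1 / 4) ^ i) ∧
      (∀ j, j + (i + 1) = J + 1 → x j ≤ D * (1 / 4) ^ (i + 1)) := by
  induction i with
  | zero =>
    refine ⟨fun j _ => by simpa using hx j, fun j hj => ?_⟩
    have h1 := hrec j (by omega)
    have h2 := hx (j + 1)
    have h3 := hx (j + 2)
    norm_num
    linarith
  | succ i ih =>
    refine ⟨ih.2, fun j hj => ?_⟩
    have h1 := hrec j (by omega)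
    have h2 := ih.2 (j + 1) (by omega)
    have h3 := ih.1 (j + 2) (by omega)
    have h4 : 0 ≤ D * (1 / 4) ^ i := by positivity
    rw [pow_succ, pow_succ]
    rw [pow_succ] at h2
    linarith

theorem num {h k m : ℕ} {w : ℕ → ℝ} (hw : ∀ n, 0 ≤ w n) (hk : 400 ≤ k) (hkh : k ≤ 2 * h)
    (hm : 4 * h ≤ 5 * m) (hmh : m ≤ h)
    (hrec : ∀ j < h, ((k : ℝ) - 2 * j) * w j ≤
      4 * ((h : ℝ) - j - 1) * (2 * w (j + 1) + w (j + 2))) :
    ∑ j ∈ range (h - m + 1), ((h - m).choose j : ℝ) * w j ≤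
      (2 : ℝ) ^ (-((k : ℝ) / 100)) * ∑ j ∈ range (h + 1), (h.choose j : ℝ) * w j := by
  set x : ℕ → ℝ := fun j => (h.choose j : ℝ) * w j with hxdef
  set D : ℝ := ∑ j ∈ range (h + 1), (h.choose j : ℝ) * w j with hDdef
  set J : ℕ := k / 100 with hJdef
  have hx0 : ∀ j, 0 ≤ x j := fun j => mul_nonneg (Nat.cast_nonneg _) (hw j)
  have hD0 : 0 ≤ D := Finset.sum_nonneg fun j _ => hx0 j
  have hxD : ∀ j, x j ≤ D := by
    intro j
    by_cases hj : j ∈ range (h + 1)
    · exact Finset.single_le_sum (f := x) (fun j _ => hx0 j) hj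
    · rw [mem_range, not_lt] at hj
      have : x j = 0 := by
        simp only [hxdef]
        rw [Nat.choose_eq_zero_of_lt (by omega)]; simp
      rw [this]; exact hD0
  have hxrec : ∀ j ≤ J, x j ≤ x (j + 1) / 8 + x (j + 2) / 64 := by
    intro j hj
    exact x_step hw hk hkh (by omega) (hrec j (by omega))
  have hxb : ∀ j ≤ J, x j ≤ D * (1 / 4) ^ (J + 1 - j) := by
    intro j hj
    exact (x_bound hD0 hxD hxrec (J + 1 - j)).1 j (by omega)
  have hterm : ∀ j, (1 / 5 : ℝ) ^ j * x j ≤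
      (1 / 4 : ℝ) ^ (J + 1) * (x j + if j ≤ J then D else 0) := by
    intro j
    have h54 : (1 / 5 : ℝ) ^ j ≤ (1 / 4) ^ j := pow_le_pow_left₀ (by norm_num) (by norm_num) j
    by_cases hj : j ≤ J
    · rw [if_pos hj]
      have h1 := hxb j hj
      have h2 : (1 / 4 : ℝ) ^ j * (1 / 4) ^ (J + 1 - j) = (1 / 4) ^ (J + 1) := by
        rw [← pow_add]; congr 1; omega
      calc (1 / 5 : ℝ) ^ j * x j ≤ (1 / 4) ^ j * (D * (1 / 4) ^ (J + 1 - j)) :=
            mul_le_mul h54 h1 (hx0 j) (by positivity)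
        _ = (1 / 4) ^ (J + 1) * D := by rw [← h2]; ring
        _ ≤ (1 / 4) ^ (J + 1) * (x j + D) := by
            apply mul_le_mul_of_nonneg_left _ (by positivity)
            linarith [hx0 j]
    · rw [if_neg hj, add_zero]
      apply mul_le_mul_of_nonneg_right _ (hx0 j)
      refine h54.trans ?_
      exact pow_le_pow_of_le_one (by norm_num) (by norm_num) (by omega)
  have hDM : ∑ j ∈ range (h - m + 1), ((h - m).choose j : ℝ) * w j ≤
      ∑ j ∈ range (h + 1), (1 / 5 : ℝ) ^ j * x j := by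
    calc ∑ j ∈ range (h - m + 1), ((h - m).choose j : ℝ) * w j
        ≤ ∑ j ∈ range (h - m + 1), (1 / 5 : ℝ) ^ j * x j := by
          apply Finset.sum_le_sum
          intro j _
          simp only [hxdef]
          rw [← mul_assoc]
          apply mul_le_mul_of_nonneg_right _ (hw j)
          have h1 := choose_five (n := h - m) (h := h) (by omega) j
          have h2 : (5 : ℝ) ^ j * ((h - m).choose j : ℝ) ≤ (h.choose j : ℝ) := by exact_mod_cast h1
          rw [one_div, inv_pow, inv_mul_eq_div, le_div_iff₀ (by positivity)]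
          linarith
      _ ≤ ∑ j ∈ range (h + 1), (1 / 5 : ℝ) ^ j * x j := by
          apply Finset.sum_le_sum_of_subset_of_nonneg
          · intro j hj
            rw [mem_range] at hj ⊢
            omega
          · intro j _ _
            exact mul_nonneg (by positivity) (hx0 j)
  have hsum2 : ∑ j ∈ range (h + 1), (1 / 5 : ℝ) ^ j * x j ≤
      (1 / 4 : ℝ) ^ (J + 1) * (D + (J + 1) * D) := by
    refine (Finset.sum_le_sum fun j _ => hterm j).trans ?_
    rw [← Finset.mul_sum]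
    apply mul_le_mul_of_nonneg_left _ (by positivity)
    rw [Finset.sum_add_distrib]
    apply add_le_add (le_of_eq hDdef.symm)
    rw [← Finset.sum_filter, Finset.sum_const, nsmul_eq_mul]
    apply mul_le_mul_of_nonneg_right _ hD0
    have : ((range (h + 1)).filter (fun j => j ≤ J)).card ≤ J + 1 := by
      calc ((range (h + 1)).filter (fun j => j ≤ J)).card ≤ (range (J + 1)).card := by
            apply Finset.card_le_card
            intro j hj
            rw [mem_filter] at hj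
            rw [mem_range]; omega
        _ = J + 1 := card_range _
    exact_mod_cast this
  have hfin : (1 / 4 : ℝ) ^ (J + 1) * (D + (J + 1) * D) ≤ (2 : ℝ) ^ (-((k : ℝ) / 100)) * D := by
    have h1 : ((J : ℝ) + 2) ≤ 2 ^ (J + 1) := by
      have : J + 2 ≤ 2 ^ (J + 1) := by
        have := Nat.lt_two_pow_self (n := J + 1)
        omega
      exact_mod_cast this
    have h2 : (1 / 4 : ℝ) ^ (J + 1) * ((J : ℝ) + 2) ≤ (1 / 2) ^ (J + 1) := by
      calc (1 / 4 : ℝ) ^ (J + 1) * ((J : ℝ) + 2) ≤ (1 / 4 : ℝ) ^ (J + 1) * 2 ^ (J + 1) := by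
            apply mul_le_mul_of_nonneg_left h1 (by positivity)
        _ = (1 / 2) ^ (J + 1) := by rw [← mul_pow]; norm_num
    have h3 : (1 / 2 : ℝ) ^ (J + 1) ≤ (2 : ℝ) ^ (-((k : ℝ) / 100)) := by
      have h4 : (1 / 2 : ℝ) ^ (J + 1) = (2 : ℝ) ^ (-((J + 1 : ℕ) : ℝ)) := by
        rw [Real.rpow_neg (by norm_num), Real.rpow_natCast, one_div, inv_pow]
      rw [h4]
      apply Real.rpow_le_rpow_of_exponent_le (by norm_num)
      have h5 : k < 100 * (J + 1) := by omega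
      have h6 : (k : ℝ) < 100 * ((J + 1 : ℕ) : ℝ) := by exact_mod_cast h5
      linarith
    calc (1 / 4 : ℝ) ^ (J + 1) * (D + (J + 1) * D)
        = ((1 / 4 : ℝ) ^ (J + 1) * ((J : ℝ) + 2)) * D := by ring
      _ ≤ (2 : ℝ) ^ (-((k : ℝ) / 100)) * D := mul_le_mul_of_nonneg_right (h2.trans h3) hD0
  exact hDM.trans (hsum2.trans hfin)

end Vale.Agent.P162.H816
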