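import Vale.Agent.P162.H816.Rec
import Vale.Agent.P162.H816.Num

/-!
# The dimension bound

If no nonzero vector is invariant under `S_B` with `|B| > N - k`, the vectors fixed by a matching
with at least `2N/5` pairs form a subspace of relative dimension at most `2^(-k/100)`.
-/

open Equiv Finset
open scoped InnerProductSpace

namespace Vale.Agent.P162.H816

variable {V : Type*} [NormedAddCommGroup V] [InnerProductSpace ℝ V] [FiniteDimensional ℝ V]

theorem finrank_FixM_le {ι : Type*} [Fintype ι] [DecidableEq ι]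
    {ρ : Perm (Bool × ι) →* (V →ₗ[ℝ] V)} (hρ : ∀ g v, ‖ρ g v‖ = ‖v‖) {k : ℕ} (hk : 400 ≤ k)
    (hi : ∀ B : Finset (Bool × ι), Fintype.card (Bool × ι) < B.card + k → ∀ v : V,
      (∀ x ∈ B, ∀ y ∈ B, ρ (swap x y) v = v) → v = 0) (M : Finset ι)
    (hM : 4 * Fintype.card ι ≤ 5 * M.card) :
    (Module.finrank ℝ (FixM ρ M) : ℝ) ≤
      (2 : ℝ) ^ (-((k : ℝ) / 100)) * (Module.finrank ℝ V : ℝ) := by
  by_cases hkc : k ≤ Fintype.card (Bool × ι)
  · have hcard : Fintype.card (Bool × ι) = 2 * Fintype.card ι := by simp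
    have h1 : (Module.finrank ℝ V : ℝ) =
        ∑ j ∈ range (Fintype.card ι + 1), ((Fintype.card ι).choose j : ℝ) * wn ρ j := by
      rw [finrank_eq_sum ρ, Finset.sum_congr rfl (fun K _ => w_eq_wn ρ K), ← Finset.powerset_univ,
        Finset.sum_powerset_apply_card, card_univ]
      exact Finset.sum_congr rfl fun j _ => nsmul_eq_mul _ _
    have h2 : (Module.finrank ℝ (FixM ρ M) : ℝ) =
        ∑ j ∈ range (Fintype.card ι - M.card + 1),
          ((Fintype.card ι - M.card).choose j : ℝ) * wn ρ j := by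
      rw [finrank_FixM ρ M, Finset.sum_congr rfl (fun K _ => w_eq_wn ρ K)]
      have h3 : (univ.filter (fun K : Finset ι => Disjoint K M)) = Mᶜ.powerset := by
        ext K
        rw [mem_filter, mem_powerset, Finset.subset_compl_iff_disjoint_right]
        simp
      rw [h3, Finset.sum_powerset_apply_card, card_compl]
      exact Finset.sum_congr rfl fun j _ => nsmul_eq_mul _ _
    rw [h1, h2]
    refine num (wn_nonneg ρ) hk (by omega) hM (Finset.card_le_univ M) ?_
    intro j hj
    exact recursion hρ hkc hi hj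
  · have hv : ∀ v : V, v = 0 := fun v =>
      hi ∅ (by rw [Finset.card_empty]; omega) v (by simp)
    have h1 : Module.finrank ℝ (FixM ρ M) ≤ Module.finrank ℝ V := Submodule.finrank_le _
    have h2 : Module.finrank ℝ V = 0 := by
      have : Subsingleton V := ⟨fun a b => by rw [hv a, hv b]⟩
      exact Module.finrank_zero_of_subsingleton
    have h3 : Module.finrank ℝ (FixM ρ M) = 0 := by omega
    rw [h2, h3]
    simp

/-- the vectors fixed by the transpositions of the matching `mt`. -/
def InvM {α ι : Type*} [DecidableEq α] (ρ : Perm α →* (V →ₗ[ℝ] V)) (mt : Bool × ι → α) :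
    Submodule ℝ V where
  carrier := {v | ∀ i, ρ (swap (mt (false, i)) (mt (true, i))) v = v}
  add_mem' := by
    intro a b ha hb i
    rw [map_add, ha i, hb i]
  zero_mem' := by intro i; simp
  smul_mem' := by
    intro c x hx i
    rw [map_smul, hx i]

theorem dim_le {α : Type*} [Fintype α] [DecidableEq α] {ρ : Perm α →* (V →ₗ[ℝ] V)}
    (hρ : ∀ g v, ‖ρ g v‖ = ‖v‖) (heven : Even (Fintype.card α)) {k : ℕ} (hk : 400 ≤ k)
    (hi : ∀ B : Finset α, Fintype.card α < B.card + k → ∀ v : V,
      (∀ x ∈ B, ∀ y ∈ B, ρ (swap x y) v = v) → v = 0) {ι : Type*} [Fintype ι]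
    {mt : Bool × ι → α} (hmt : Function.Injective mt)
    (hcard : 2 * Fintype.card α ≤ 5 * Fintype.card ι) :
    (Module.finrank ℝ (InvM ρ mt) : ℝ) ≤
      (2 : ℝ) ^ (-((k : ℝ) / 100)) * (Module.finrank ℝ V : ℝ) := by
  classical
  have hle : 2 * Fintype.card ι ≤ Fintype.card α := by
    have := Fintype.card_le_of_injective mt hmt
    simpa using this
  obtain ⟨h, hh⟩ := heven
  let r : ℕ := h - Fintype.card ι
  have hcompl : Fintype.card {a // a ∉ Set.range mt} = Fintype.card (Bool × Fin r) := by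
    have h1 : Fintype.card {a // a ∉ Set.range mt} =
        Fintype.card α - Fintype.card {a // a ∈ Set.range mt} := Fintype.card_subtype_compl _
    have h2 : Fintype.card {a // a ∈ Set.range mt} = Fintype.card (Bool × ι) :=
      (Fintype.card_congr (Equiv.ofInjective mt hmt)).symm
    rw [h1, h2]
    simp only [Fintype.card_prod, Fintype.card_bool, Fintype.card_fin, r]
    omega
  let e2 : Bool × Fin r ≃ {a // a ∉ Set.range mt} := Fintype.equivOfCardEq hcompl.symm
  let e1 : Bool × ι ≃ {a // a ∈ Set.range mt} := Equiv.ofInjective mt hmt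
  let e : Bool × (ι ⊕ Fin r) ≃ α :=
    (Equiv.prodSumDistrib Bool ι (Fin r)).trans
      ((Equiv.sumCongr e1 e2).trans (Equiv.sumCompl (fun a => a ∈ Set.range mt)))
  have he : ∀ b i, e (b, Sum.inl i) = mt (b, i) := by
    intro b i
    rfl
  let ρ' : Perm (Bool × (ι ⊕ Fin r)) →* (V →ₗ[ℝ] V) := ρ.comp e.permCongrHom.toMonoidHom
  have hρ'sw : ∀ x y, ρ' (swap x y) = ρ (swap (e x) (e y)) := by
    intro x y
    have h1 : e.permCongrHom (swap x y) = swap (e x) (e y) := by
      rw [Equiv.permCongrHom_coe, Equiv.permCongr_def, Equiv.symm_trans_swap_trans]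
    show ρ (e.permCongrHom (swap x y)) = _
    rw [h1]
  have hρ' : ∀ g v, ‖ρ' g v‖ = ‖v‖ := fun g v => hρ _ v
  have hi' : ∀ B : Finset (Bool × (ι ⊕ Fin r)),
      Fintype.card (Bool × (ι ⊕ Fin r)) < B.card + k → ∀ v : V,
      (∀ x ∈ B, ∀ y ∈ B, ρ' (swap x y) v = v) → v = 0 := by
    intro B hB v hv
    apply hi (B.map e.toEmbedding)
    · rw [card_map, ← Fintype.card_congr e]; exact hB
    · intro x hx y hy
      obtain ⟨x', hx', rfl⟩ := Finset.mem_map.mp hx
      obtain ⟨y', hy', rfl⟩ := Finset.mem_map.mp hy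
      have := hv x' hx' y' hy'
      rw [hρ'sw] at this
      exact this
  let M : Finset (ι ⊕ Fin r) := univ.map Function.Embedding.inl
  have hMc : M.card = Fintype.card ι := by rw [card_map, card_univ]
  have hM : 4 * Fintype.card (ι ⊕ Fin r) ≤ 5 * M.card := by
    rw [hMc, Fintype.card_sum, Fintype.card_fin]
    omega
  have hmain := finrank_FixM_le hρ' hk hi' M hM
  have hEq : FixM ρ' M = InvM ρ mt := by
    ext v
    constructor
    · intro hv i
      have h1 := hv (Sum.inl i) (by simp [M])
      unfold tp at h1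
      rw [H474.flip_singleton, hρ'sw, he, he] at h1
      exact h1
    · intro hv j hj
      obtain ⟨i, -, rfl⟩ := Finset.mem_map.mp hj
      unfold tp
      rw [H474.flip_singleton, hρ'sw]
      exact hv i
  rw [hEq] at hmain
  exact hmain

end Vale.Agent.P162.H816
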