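import Mathlib
import Vale.Agent.P162.H474.Basic

/-!
# Sign projections of a perfect matching

`α = Bool × ι`, the pairs of the perfect matching are `{(false, i), (true, i)}`. For a norm
preserving representation `ρ` of `Perm (Bool × ι)` and `K : Finset ι` we define the projection `E K`
onto the space `U K` of the vectors on which the `i`-th pair transposition acts as `-1` if `i ∈ K`
and as `1` otherwise.
-/

open Equiv Finset
open scoped InnerProductSpace

namespace Vale.Agent.P162.H816

open Vale.Agent.P162.H474 (flip flip_mul flip_singleton flip_empty flip_inv)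

variable {ι : Type*} [Fintype ι] [DecidableEq ι]
variable {V : Type*} [NormedAddCommGroup V] [InnerProductSpace ℝ V]

/-- the sign of the pair `i` -/
noncomputable def sgn (K : Finset ι) (i : ι) : ℝ := if i ∈ K then -1 else 1

omit [Fintype ι] in
theorem sgn_mul_self (K : Finset ι) (i : ι) : sgn K i * sgn K i = 1 := by
  unfold sgn; split_ifs <;> norm_num

/-- character -/
noncomputable def chi (K S : Finset ι) : ℝ := ∏ i ∈ S, sgn K i

omit [Fintype ι] in
theorem chi_symmDiff (K S : Finset ι) (i : ι) :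
    chi K (symmDiff {i} S) = sgn K i * chi K S := by
  unfold chi
  by_cases h : i ∈ S
  · have h1 : symmDiff {i} S = S.erase i := by
      ext j
      simp only [Finset.mem_symmDiff, Finset.mem_singleton, Finset.mem_erase]
      constructor
      · rintro (⟨h1, h2⟩ | ⟨h1, h2⟩)
        · subst h1; exact absurd h h2
        · exact ⟨h2, h1⟩
      · rintro ⟨h1, h2⟩
        exact Or.inr ⟨h2, h1⟩
    rw [h1, ← Finset.mul_prod_erase S (sgn K) h, ← mul_assoc, sgn_mul_self, one_mul]
  · have h1 : symmDiff {i} S = insert i S := by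
      ext j
      simp only [Finset.mem_symmDiff, Finset.mem_singleton, Finset.mem_insert]
      constructor
      · rintro (⟨h1, h2⟩ | ⟨h1, h2⟩)
        · exact Or.inl h1
        · exact Or.inr h1
      · rintro (h1 | h1)
        · subst h1; exact Or.inl ⟨rfl, h⟩
        · by_cases hj : j = i
          · subst hj; exact absurd h1 h
          · exact Or.inr ⟨h1, hj⟩
    rw [h1, Finset.prod_insert h]

omit [Fintype ι] in
theorem chi_symm (K S : Finset ι) : chi K S = ∏ i ∈ K, (if i ∈ S then (-1 : ℝ) else 1) := by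
  unfold chi sgn
  rw [Finset.prod_ite, Finset.prod_ite]
  simp only [Finset.prod_const, one_pow, mul_one]
  have h : (S.filter (fun x => x ∈ K)) = (K.filter (fun x => x ∈ S)) := by
    ext j
    simp [and_comm]
  rw [h]

theorem sum_chi (S : Finset ι) :
    ∑ K : Finset ι, chi K S = if S = ∅ then (2 : ℝ) ^ Fintype.card ι else 0 := by
  have h1 : ∑ K : Finset ι, chi K S = ∏ i : ι, (1 + (if i ∈ S then (-1 : ℝ) else 1)) := by
    rw [Finset.prod_one_add]
    simp only [chi_symm]
    rw [Finset.powerset_univ]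
  rw [h1]
  split_ifs with h
  · subst h
    simp only [Finset.notMem_empty, if_false]
    rw [Finset.prod_const, Finset.card_univ]
    norm_num
  · obtain ⟨i, hi⟩ := Finset.nonempty_iff_ne_empty.mpr h
    apply Finset.prod_eq_zero (Finset.mem_univ i)
    simp [hi]

variable (ρ : Perm (Bool × ι) →* (V →ₗ[ℝ] V))

/-- the pair transposition -/
noncomputable def tp (i : ι) : V →ₗ[ℝ] V := ρ (flip {i})

omit [Fintype ι] in
theorem rho_flip_flip (S T : Finset ι) (v : V) :
    ρ (flip S) (ρ (flip T) v) = ρ (flip (symmDiff S T)) v := by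
  have : ρ (flip S * flip T) = ρ (flip S) * ρ (flip T) := map_mul ρ _ _
  rw [flip_mul] at this
  rw [this]
  rfl

omit [Fintype ι] in
theorem tp_tp (i : ι) (v : V) : tp ρ i (tp ρ i v) = v := by
  unfold tp
  rw [rho_flip_flip, symmDiff_self]
  have : ρ (flip (⊥ : Finset ι)) = 1 := by
    have h : flip (⊥ : Finset ι) = 1 := flip_empty
    rw [h, map_one]
  rw [this]; rfl

/-- the projection -/
noncomputable def E (K : Finset ι) : V →ₗ[ℝ] V :=
  ((2 : ℝ) ^ Fintype.card ι)⁻¹ • ∑ S : Finset ι, chi K S • ρ (flip S)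

theorem E_apply (K : Finset ι) (v : V) :
    E ρ K v = ((2 : ℝ) ^ Fintype.card ι)⁻¹ • ∑ S : Finset ι, chi K S • ρ (flip S) v := by
  simp [E, LinearMap.smul_apply, LinearMap.sum_apply]

/-- the joint eigenspace -/
def U (K : Finset ι) : Submodule ℝ V where
  carrier := {v | ∀ i, tp ρ i v = sgn K i • v}
  add_mem' := by
    intro a b ha hb i
    rw [map_add, ha i, hb i, smul_add]
  zero_mem' := by intro i; simp
  smul_mem' := by
    intro c x hx i
    rw [map_smul, hx i, smul_comm]

omit [Fintype ι] in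
theorem mem_U (K : Finset ι) (v : V) : v ∈ U ρ K ↔ ∀ i, tp ρ i v = sgn K i • v := Iff.rfl

omit [Fintype ι] in
theorem symmDiff_invol (i : ι) : Function.Involutive (fun S : Finset ι => symmDiff {i} S) := by
  intro S
  simp [symmDiff_symmDiff_cancel_left]

theorem tp_E (K : Finset ι) (i : ι) (v : V) : tp ρ i (E ρ K v) = sgn K i • E ρ K v := by
  rw [E_apply, map_smul, map_sum, smul_comm (sgn K i)]
  congr 1
  rw [Finset.smul_sum]
  have h1 : ∀ S : Finset ι, tp ρ i (chi K S • ρ (flip S) v)
      = chi K S • ρ (flip (symmDiff {i} S)) v := by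
    intro S
    rw [map_smul]
    congr 1
    exact rho_flip_flip ρ _ _ _
  simp only [h1]
  rw [← Equiv.sum_comp (Function.Involutive.toPerm _ (symmDiff_invol i))]
  apply Finset.sum_congr rfl
  intro S _
  have h2 : symmDiff {i} ((Function.Involutive.toPerm _ (symmDiff_invol i)) S) = S :=
    symmDiff_invol i S
  rw [h2]
  have h3 : chi K ((Function.Involutive.toPerm _ (symmDiff_invol i)) S) = sgn K i * chi K S :=
    chi_symmDiff K S i
  rw [h3, mul_smul]

theorem E_tp (K : Finset ι) (i : ι) (v : V) : E ρ K (tp ρ i v) = sgn K i • E ρ K v := by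
  rw [← tp_E]
  rw [E_apply, E_apply, map_smul, map_sum]
  congr 1
  apply Finset.sum_congr rfl
  intro S _
  rw [map_smul]
  congr 1
  unfold tp
  rw [rho_flip_flip, rho_flip_flip, symmDiff_comm]

theorem sum_E (v : V) : ∑ K : Finset ι, E ρ K v = v := by
  simp only [E_apply]
  rw [← Finset.smul_sum, Finset.sum_comm]
  simp only [← Finset.sum_smul, sum_chi]
  rw [Finset.sum_eq_single ∅]
  · rw [if_pos rfl, flip_empty, map_one, smul_smul, inv_mul_cancel₀ (by positivity), one_smul]
    rfl
  · intro S _ hS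
    rw [if_neg hS, zero_smul]
  · intro h
    exact absurd (Finset.mem_univ _) h

theorem E_mem (K : Finset ι) (v : V) : E ρ K v ∈ U ρ K := fun i => tp_E ρ K i v

/-- a vector of sign `s` at the pair `i` is killed by the projections of the other sign. -/
theorem E_eq_zero_of_tp {K : Finset ι} {i : ι} {v : V} {s : ℝ} (h : tp ρ i v = s • v)
    (hs : sgn K i ≠ s) : E ρ K v = 0 := by
  have h1 := E_tp ρ K i v
  rw [h, map_smul] at h1
  have h2 : (s - sgn K i) • E ρ K v = 0 := by rw [sub_smul, h1, sub_self]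
  rcases smul_eq_zero.mp h2 with h3 | h3
  · exact absurd (sub_eq_zero.mp h3).symm hs
  · exact h3

theorem E_of_mem_ne {K K' : Finset ι} (h : K ≠ K') {v : V} (hv : v ∈ U ρ K) : E ρ K' v = 0 := by
  obtain ⟨i, hi⟩ : ∃ i, ¬ (i ∈ K ↔ i ∈ K') := by
    by_contra hcon
    push Not at hcon
    exact h (Finset.ext hcon)
  apply E_eq_zero_of_tp ρ (hv i)
  unfold sgn
  by_cases h1 : i ∈ K <;> by_cases h2 : i ∈ K' <;> simp [h1, h2] at hi ⊢ <;> norm_num

theorem E_of_mem {K : Finset ι} {v : V} (hv : v ∈ U ρ K) : E ρ K v = v := by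
  have h := sum_E ρ v
  rw [Finset.sum_eq_single K] at h
  · exact h
  · intro K' _ hK'
    exact E_of_mem_ne ρ (Ne.symm hK') hv
  · intro h'
    exact absurd (Finset.mem_univ _) h'

variable {ρ}

omit [Fintype ι] [DecidableEq ι] in
/-- polarisation -/
theorem inner_map {α : Type*} {σ : Perm α →* (V →ₗ[ℝ] V)} (hσ : ∀ g v, ‖σ g v‖ = ‖v‖) (g : Perm α)
    (v w : V) : ⟪σ g v, σ g w⟫_ℝ = ⟪v, w⟫_ℝ := by
  have h1 := hσ g (v + w)
  have h2 := real_inner_eq_norm_add_mul_self_sub_norm_mul_self_sub_norm_mul_self_div_two v w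
  have h3 := real_inner_eq_norm_add_mul_self_sub_norm_mul_self_sub_norm_mul_self_div_two
    (σ g v) (σ g w)
  rw [h2, h3, ← map_add, h1, hσ, hσ]

omit [Fintype ι] [DecidableEq ι] in
theorem inner_invol {α : Type*} {σ : Perm α →* (V →ₗ[ℝ] V)} (hσ : ∀ g v, ‖σ g v‖ = ‖v‖)
    {g : Perm α} (hg : g * g = 1) (v w : V) : ⟪σ g v, w⟫_ℝ = ⟪v, σ g w⟫_ℝ := by
  have h1 := inner_map hσ g v (σ g w)
  have h2 : σ g (σ g w) = w := by
    have : σ (g * g) = σ g * σ g := map_mul σ _ _
    rw [hg, map_one] at this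
    have h3 := congrArg (fun f => f w) this
    simpa using h3.symm
  rw [h2] at h1
  exact h1

theorem E_symm (hρ : ∀ g v, ‖ρ g v‖ = ‖v‖) (K : Finset ι) (v w : V) :
    ⟪E ρ K v, w⟫_ℝ = ⟪v, E ρ K w⟫_ℝ := by
  rw [E_apply, E_apply, real_inner_smul_left, real_inner_smul_right, sum_inner, inner_sum]
  congr 1
  apply Finset.sum_congr rfl
  intro S _
  rw [real_inner_smul_left, real_inner_smul_right]
  congr 1
  apply inner_invol hρ
  rw [flip_mul, symmDiff_self]
  exact flip_empty

theorem norm_sq_eq_sum (hρ : ∀ g v, ‖ρ g v‖ = ‖v‖) (v : V) :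
    ‖v‖ ^ 2 = ∑ K : Finset ι, ‖E ρ K v‖ ^ 2 := by
  have h1 : ‖v‖ ^ 2 = ⟪v, v⟫_ℝ := (real_inner_self_eq_norm_sq v).symm
  rw [h1]
  nth_rewrite 2 [← sum_E ρ v]
  rw [inner_sum]
  apply Finset.sum_congr rfl
  intro K _
  rw [← real_inner_self_eq_norm_sq, E_symm hρ, E_of_mem ρ (E_mem ρ K v)]

end Vale.Agent.P162.H816
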