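import Vale.Agent.P162.H816.Cross
import Vale.Agent.P162.H790.EB

/-!
# The recursion for the dimensions of the sign spaces
-/

open Equiv Finset
open scoped InnerProductSpace

namespace Vale.Agent.P162.H816

variable {ι : Type*} [Fintype ι] [DecidableEq ι]
variable {V : Type*} [NormedAddCommGroup V] [InnerProductSpace ℝ V] [FiniteDimensional ℝ V]
variable (ρ : Perm (Bool × ι) →* (V →ₗ[ℝ] V))

/-- the common dimension of the sign spaces of the sets with `n` elements -/
noncomputable def wn (n : ℕ) : ℝ := if h : ∃ K : Finset ι, K.card = n then (w ρ h.choose : ℝ) else 0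

theorem w_eq_wn (K : Finset ι) : (w ρ K : ℝ) = wn ρ K.card := by
  have h : ∃ K' : Finset ι, K'.card = K.card := ⟨K, rfl⟩
  rw [wn, dif_pos h]
  rw [w_eq_of_card ρ h.choose_spec]

omit [FiniteDimensional ℝ V] in
theorem wn_nonneg (n : ℕ) : 0 ≤ wn ρ n := by
  unfold wn
  split_ifs
  · positivity
  · exact le_rfl

variable {ρ}

theorem recursion (hρ : ∀ g v, ‖ρ g v‖ = ‖v‖) {k j : ℕ} (hk : k ≤ Fintype.card (Bool × ι))
    (hi : ∀ B : Finset (Bool × ι), Fintype.card (Bool × ι) < B.card + k → ∀ v : V,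
      (∀ x ∈ B, ∀ y ∈ B, ρ (swap x y) v = v) → v = 0) (hj : j < Fintype.card ι) :
    ((k : ℝ) - 2 * j) * wn ρ j ≤
      4 * ((Fintype.card ι : ℝ) - j - 1) * (2 * wn ρ (j + 1) + wn ρ (j + 2)) := by
  classical
  obtain ⟨K, -, hK⟩ := Finset.exists_subset_card_eq (s := (univ : Finset ι)) (n := j)
    (by rw [card_univ]; exact hj.le)
  let Ω : Finset (Bool × ι) := univ ×ˢ Kᶜ
  have hΩc : Ω.card = 2 * (Fintype.card ι - j) := by
    simp only [Ω, card_product, card_univ, Fintype.card_bool, card_compl, hK]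
  have hcard : Fintype.card (Bool × ι) = 2 * Fintype.card ι := by simp
  have hΩ : Ω.card + 2 * j = Fintype.card (Bool × ι) := by
    rw [hΩc, hcard]; omega
  have hΩr : (Ω.card : ℝ) = 2 * ((Fintype.card ι : ℝ) - j) := by
    rw [hΩc]; push_cast [Nat.cast_sub hj.le]; ring
  let b := stdOrthonormalBasis ℝ (U ρ K)
  have hn : ∀ i, ‖(b i : V)‖ = 1 := by
    intro i
    have h8 : ‖b i‖ = 1 := b.orthonormal.1 i
    exact h8
  have hE : ∀ i, (Ω.card : ℝ) * ((k : ℝ) - 2 * j) ≤
      ∑ x ∈ Ω, ∑ y ∈ Ω.erase x, (1 - ⟪(b i : V), ρ (swap x y) (b i)⟫_ℝ) := by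
    intro i
    have h := H790.level_energy_ge ρ hρ Ω ⊤ (fun _ _ _ _ _ _ => Submodule.mem_top) k j hk hΩ
      (fun B _ hB v _ hv => hi B hB v hv) (w := (b i : V)) Submodule.mem_top
    rw [hn i, one_pow, mul_one] at h
    refine h.trans (le_of_eq ?_)
    apply Finset.sum_congr rfl
    intro x _
    apply Finset.sum_congr rfl
    intro y _
    rw [real_inner_comm]
  have hsum : (Ω.card : ℝ) * ((k : ℝ) - 2 * j) * w ρ K ≤
      ∑ x ∈ Ω, ∑ y ∈ Ω.erase x, ((w ρ K : ℝ) - tr ρ K (swap x y)) := by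
    have h1 : ∑ i : Fin (Module.finrank ℝ (U ρ K)), ((Ω.card : ℝ) * ((k : ℝ) - 2 * j)) ≤
        ∑ i : Fin (Module.finrank ℝ (U ρ K)),
          ∑ x ∈ Ω, ∑ y ∈ Ω.erase x, (1 - ⟪(b i : V), ρ (swap x y) (b i)⟫_ℝ) :=
      Finset.sum_le_sum fun i _ => hE i
    have h2 : ∑ i : Fin (Module.finrank ℝ (U ρ K)), ((Ω.card : ℝ) * ((k : ℝ) - 2 * j)) =
        (Ω.card : ℝ) * ((k : ℝ) - 2 * j) * w ρ K := by
      rw [Finset.sum_const, card_univ, Fintype.card_fin, nsmul_eq_mul, mul_comm]; rfl
    rw [h2] at h1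
    refine h1.trans (le_of_eq ?_)
    rw [Finset.sum_comm]
    apply Finset.sum_congr rfl
    intro x _
    rw [Finset.sum_comm]
    apply Finset.sum_congr rfl
    intro y _
    rw [Finset.sum_sub_distrib, tr_eq hρ K (swap x y) b]
    congr 1
    simp [w]
  set C : ℝ := 2 * (2 * wn ρ (j + 1) + wn ρ (j + 2)) with hC
  have hC0 : 0 ≤ C := by
    have h1 := wn_nonneg ρ (j + 1)
    have h2 := wn_nonneg ρ (j + 2)
    rw [hC]; positivity
  have hterm : ∀ x ∈ Ω, ∑ y ∈ Ω.erase x, ((w ρ K : ℝ) - tr ρ K (swap x y)) ≤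
      2 * ((Fintype.card ι : ℝ) - j - 1) * C := by
    intro x hx
    obtain ⟨c, e⟩ := x
    have he : e ∉ K := by
      simp only [Ω, mem_product, mem_compl] at hx
      exact hx.2
    have h1 : ∀ y ∈ Ω.erase (c, e), ((w ρ K : ℝ) - tr ρ K (swap (c, e) y)) ≤
        if y.2 = e then 0 else C := by
      rintro ⟨c', f⟩ hy
      rw [Finset.mem_erase] at hy
      have hf : f ∉ K := by
        have := hy.2
        simp only [Ω, mem_product, mem_compl] at this
        exact this.2
      by_cases hfe : f = e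
      · subst hfe
        rw [if_pos rfl, tr_pair hρ he]
        intro h
        exact hy.1 (by rw [h])
      · simp only [hfe, if_false]
        have h2 := tr_cross hρ (c := c) (c' := c') he hf (Ne.symm hfe)
        have c1 : (insert e K).card = j + 1 := by rw [card_insert_of_notMem he, hK]
        have c2 : (insert f K).card = j + 1 := by rw [card_insert_of_notMem hf, hK]
        have c3 : (insert e (insert f K)).card = j + 2 := by
          rw [card_insert_of_notMem, c2]
          simp [Ne.symm hfe, he]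
        rw [w_eq_wn ρ (insert e K), w_eq_wn ρ (insert f K), w_eq_wn ρ (insert e (insert f K)),
          c1, c2, c3] at h2
        refine h2.trans (le_of_eq ?_)
        rw [hC]; ring
    refine (Finset.sum_le_sum h1).trans ?_
    have h3 : ∑ y ∈ Ω.erase (c, e), (if y.2 = e then 0 else C) ≤
        ∑ y ∈ Ω, (if y.2 = e then 0 else C) := by
      apply Finset.sum_le_sum_of_subset_of_nonneg (Finset.erase_subset _ _)
      intro y _ _
      split_ifs
      · exact le_rfl
      · exact hC0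
    refine h3.trans (le_of_eq ?_)
    have h4 : ∀ y : Bool × ι, (if y.2 = e then (0 : ℝ) else C) = if ¬ (y.2 = e) then C else 0 := by
      intro y
      by_cases h : y.2 = e <;> simp [h]
    simp only [h4]
    rw [← Finset.sum_filter, Finset.sum_const, nsmul_eq_mul]
    congr 1
    have h5 : (Ω.filter (fun y => ¬ y.2 = e)) = univ ×ˢ (Kᶜ.erase e) := by
      ext y
      simp only [Ω, mem_filter, mem_product, mem_univ, true_and, mem_compl, mem_erase]
      tauto
    rw [h5, card_product, card_univ, Fintype.card_bool, card_erase_of_mem (by simp [he]),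
      card_compl, hK]
    have : ((2 * (Fintype.card ι - j - 1) : ℕ) : ℝ) = 2 * ((Fintype.card ι : ℝ) - j - 1) := by
      rw [Nat.cast_mul, Nat.cast_sub (by omega), Nat.cast_sub hj.le]
      norm_num
    exact this
  have hfin := hsum.trans (Finset.sum_le_sum hterm)
  rw [Finset.sum_const, nsmul_eq_mul, w_eq_wn ρ K, hK] at hfin
  have hpos : 0 < (Ω.card : ℝ) := by
    rw [hΩr]
    have : (j : ℝ) < Fintype.card ι := by exact_mod_cast hj
    linarith
  have h6 : (Ω.card : ℝ) * (((k : ℝ) - 2 * j) * wn ρ j) ≤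
      (Ω.card : ℝ) * (4 * ((Fintype.card ι : ℝ) - j - 1) * (2 * wn ρ (j + 1) + wn ρ (j + 2))) := by
    calc (Ω.card : ℝ) * (((k : ℝ) - 2 * j) * wn ρ j) =
        (Ω.card : ℝ) * ((k : ℝ) - 2 * j) * wn ρ j := by ring
      _ ≤ _ := hfin
      _ = _ := by rw [hC]; ring
  exact le_of_mul_le_mul_left h6 hpos

end Vale.Agent.P162.H816
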